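import Mathlib

/-! Kakeya sets whose segments depend in a Lipschitz way on the direction, on a set of
directions of positive measure, have positive Lebesgue measure. -/

namespace Vale.Agent.H13.Kakeya

open MeasureTheory Set Module
open scoped ENNReal NNReal Topology

section general

variable {E : Type*} [NormedAddCommGroup E] [NormedSpace ℝ E] [FiniteDimensional ℝ E]
  [MeasurableSpace E] [BorelSpace E]

theorem pos_of_invertible (μ : Measure E) [μ.IsAddHaarMeasure] (f : E → E) (s : Set E)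
    (hs : 0 < μ s) (f' : E → E →L[ℝ] E) (hf : ∀ x ∈ s, HasFDerivAt f (f' x) x)
    (hdet : ∀ x ∈ s, (f' x).det ≠ 0) : 0 < μ (f '' s) := by
  have key : ∀ A : E →L[ℝ] E, ∃ δ : ℝ≥0, δ ≠ 0 ∧ (A.det ≠ 0 → ∃ m : ℝ≥0, m ≠ 0 ∧
      ∀ (s : Set E) (f : E → E), ApproximatesLinearOn f A s δ →
        (m : ℝ≥0∞) * μ s ≤ μ (f '' s)) := by
    intro A
    by_cases hA : A.det = 0
    · exact ⟨1, one_ne_zero, fun h => absurd hA h⟩
    · set m : ℝ≥0 := ⟨|A.det| / 2, by positivity⟩ with hm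
      have hpos : 0 < |A.det| := abs_pos.2 hA
      have hm0 : m ≠ 0 := by
        intro h
        have h5 : (m : ℝ) = |A.det| / 2 := rfl
        have h6 : (m : ℝ) = 0 := by rw [h]; rfl
        linarith
      have hlt : (m : ℝ≥0∞) < ENNReal.ofReal |A.det| := by
        rw [← ENNReal.ofReal_coe_nnreal, ENNReal.ofReal_lt_ofReal_iff hpos]
        show |A.det| / 2 < |A.det|
        linarith
      have h1 := mul_le_addHaar_image_of_lt_det μ A hlt
      have h2 : ∀ᶠ δ in 𝓝[>] (0 : ℝ≥0), δ ∈ Ioi (0 : ℝ≥0) := self_mem_nhdsWithin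
      obtain ⟨δ, hδ1, hδ2⟩ := (h1.and h2).exists
      exact ⟨δ, (mem_Ioi.1 hδ2).ne', fun _ => ⟨m, hm0, hδ1⟩⟩
  choose r hr hrm using key
  obtain ⟨t, A, -, -, hst, happ, hA⟩ := exists_partition_approximatesLinearOn_of_hasFDerivWithinAt
    f s f' (fun x hx => (hf x hx).hasFDerivWithinAt) r hr
  have hne : s.Nonempty := nonempty_of_measure_ne_zero hs.ne'
  have hex : ∃ n, 0 < μ (s ∩ t n) := by
    by_contra hcon
    push Not at hcon
    have h1 : μ s ≤ ∑' n, μ (s ∩ t n) := by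
      calc μ s ≤ μ (⋃ n, s ∩ t n) := by
            apply measure_mono
            rw [← inter_iUnion]
            exact subset_inter subset_rfl hst
        _ ≤ _ := measure_iUnion_le _
    have h2 : ∑' n, μ (s ∩ t n) = 0 := by
      simp only [ENNReal.tsum_eq_zero]
      intro n
      exact le_antisymm (hcon n) bot_le
    rw [h2] at h1
    exact absurd hs (not_lt.2 h1)
  obtain ⟨n, hn⟩ := hex
  obtain ⟨y, hy, hAy⟩ := hA hne n
  obtain ⟨m, hm0, hm⟩ := hrm (A n) (by rw [hAy]; exact hdet y hy)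
  have h3 := hm _ _ (happ n)
  have h4 : 0 < (m : ℝ≥0∞) * μ (s ∩ t n) :=
    ENNReal.mul_pos (by exact_mod_cast hm0) hn.ne'
  exact lt_of_lt_of_le h4 (le_trans h3 (measure_mono (image_mono inter_subset_left)))

theorem hasFDerivAt_homog {k : E → E} (hk : ∀ r : ℝ, 0 < r → ∀ x, k (r • x) = k x)
    {x : E} {L : E →L[ℝ] E} (h : HasFDerivAt k L x) {r : ℝ} (hr : 0 < r) :
    HasFDerivAt k (r⁻¹ • L) (r • x) := by
  have h2 : HasFDerivAt (fun y : E => r⁻¹ • y) (r⁻¹ • ContinuousLinearMap.id ℝ E) (r • x) :=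
    (hasFDerivAt_id _).const_smul r⁻¹
  have h3 : HasFDerivAt k L (r⁻¹ • (r • x)) := by
    rw [smul_smul, inv_mul_cancel₀ hr.ne', one_smul]
    exact h
  have h4 := h3.comp (r • x) h2
  have e : L.comp (r⁻¹ • ContinuousLinearMap.id ℝ E) = r⁻¹ • L := by
    ext v
    simp
  rw [e] at h4
  exact h4.congr_of_eventuallyEq
    (Filter.Eventually.of_forall (fun y => (hk r⁻¹ (inv_pos.2 hr) y).symm))

theorem null_set (μ : Measure E) [μ.IsAddHaarMeasure] {k : E → E}
    (hk : ∀ r : ℝ, 0 < r → ∀ x, k (r • x) = k x) :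
    μ {x | DifferentiableAt ℝ k x ∧ (ContinuousLinearMap.id ℝ E + fderiv ℝ k x).det = 0} = 0 := by
  set Z : Set E := {x | DifferentiableAt ℝ k x ∧
    (ContinuousLinearMap.id ℝ E + fderiv ℝ k x).det = 0} with hZ
  have hZm : MeasurableSet Z := by
    apply MeasurableSet.inter (measurableSet_of_differentiableAt ℝ k)
    have h1 : Measurable (fun x => (ContinuousLinearMap.id ℝ E + fderiv ℝ k x).det) := by
      apply ContinuousLinearMap.continuous_det.measurable.comp
      exact (measurable_fderiv ℝ k).const_add _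
    exact h1 (measurableSet_singleton 0)
  set S : Set (E × ℝ) := {p | p.2 ∈ Ioo (1:ℝ) 2 ∧ p.2 • p.1 ∈ Z} with hS
  have hSm : MeasurableSet S := by
    apply MeasurableSet.inter
    · exact measurable_snd measurableSet_Ioo
    · have : Measurable (fun p : E × ℝ => p.2 • p.1) := by fun_prop
      exact this hZm
  have hfin : ∀ x : E, (Prod.mk x ⁻¹' S).Finite := by
    intro x
    rcases (Prod.mk x ⁻¹' S).eq_empty_or_nonempty with he | ⟨r0, hr0⟩
    · rw [he]
      exact finite_empty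
    · obtain ⟨⟨h1, h2⟩, h3, h4⟩ := hr0
      simp only at h1 h2 h3 h4
      have hr0p : 0 < r0 := by linarith
      set L0 := fderiv ℝ k (r0 • x) with hL0
      have hfe : {c : ℝ | Module.End.HasEigenvalue (L0 : E →ₗ[ℝ] E) c}.Finite :=
        Module.End.finite_hasEigenvalue (f := (L0 : E →ₗ[ℝ] E))
      apply (hfe.image (fun c => -r0 * c)).subset
      rintro r ⟨⟨h5, h6⟩, h7, h8⟩
      simp only at h5 h6 h7 h8
      have hrp : 0 < r := by linarith
      have h9 := hasFDerivAt_homog hk h3.hasFDerivAt (r := r / r0) (by positivity)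
      rw [smul_smul, div_mul_cancel₀ _ hr0p.ne'] at h9
      rw [h9.fderiv] at h8
      have h10 : ∃ v : E, v ≠ 0 ∧
          (ContinuousLinearMap.id ℝ E + (r / r0)⁻¹ • L0) v = 0 := by
        have h11 : LinearMap.det ((ContinuousLinearMap.id ℝ E + (r / r0)⁻¹ • L0 :
          E →L[ℝ] E) : E →ₗ[ℝ] E) = 0 := h8
        have h12 := LinearMap.bot_lt_ker_of_det_eq_zero h11
        obtain ⟨v, hv, hv0⟩ := (Submodule.ne_bot_iff _).1 h12.ne'
        exact ⟨v, hv0, hv⟩
      obtain ⟨v, hv0, hv⟩ := h10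
      refine ⟨-(r / r0), ?_, ?_⟩
      · apply Module.End.hasEigenvalue_of_hasEigenvector (x := v)
        rw [Module.End.hasEigenvector_iff, Module.End.mem_eigenspace_iff]
        refine ⟨?_, hv0⟩
        simp only [ContinuousLinearMap.add_apply, ContinuousLinearMap.id_apply,
          ContinuousLinearMap.smul_apply] at hv
        have h13 : (r / r0) • (v + (r / r0)⁻¹ • L0 v) = 0 := by rw [hv, smul_zero]
        rw [smul_add, smul_smul, mul_inv_cancel₀ (by positivity), one_smul] at h13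
        show L0 v = -(r / r0) • v
        rw [neg_smul]
        exact eq_neg_of_add_eq_zero_right h13
      · show -r0 * -(r / r0) = r
        field_simp
  have h0 : (μ.prod (volume : Measure ℝ)) S = 0 := by
    rw [Measure.measure_prod_null hSm]
    exact Filter.Eventually.of_forall (fun x => (hfin x).measure_zero _)
  have h1 : ((volume : Measure ℝ).prod μ) (Prod.swap ⁻¹' S) = 0 := by
    rw [← Measure.prod_swap, Measure.map_apply measurable_swap (measurable_swap hSm)]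
    exact h0
  have h2 := Measure.measure_ae_null_of_prod_null h1
  have h3 : ∃ r ∈ Ioo (1:ℝ) 2, μ (Prod.mk r ⁻¹' (Prod.swap ⁻¹' S)) = 0 := by
    by_contra hcon
    push Not at hcon
    have h4 : (volume : Measure ℝ) (Ioo 1 2) = 0 := by
      apply measure_mono_null _ h2
      intro r hr
      exact hcon r hr
    rw [Real.volume_Ioo] at h4
    norm_num at h4
  obtain ⟨r, hr, h4⟩ := h3
  have h5 : Prod.mk r ⁻¹' (Prod.swap ⁻¹' S) = (fun x : E => r • x) ⁻¹' Z := by
    ext x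
    constructor
    · rintro ⟨-, h⟩
      exact h
    · intro h
      exact ⟨hr, h⟩
  have hr0 : r ≠ 0 := by linarith [hr.1]
  rw [h5, Measure.addHaar_preimage_smul μ hr0] at h4
  rcases mul_eq_zero.1 h4 with h6 | h6
  · exfalso
    rw [ENNReal.ofReal_eq_zero] at h6
    have : 0 < |(r ^ finrank ℝ E)⁻¹| := abs_pos.2 (inv_ne_zero (pow_ne_zero _ hr0))
    linarith
  · exact h6

/-- normalisation -/
noncomputable def nu (x : E) : E := ‖x‖⁻¹ • x

theorem nu_homog (r : ℝ) (hr : 0 < r) (x : E) : nu (r • x) = nu x := by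
  unfold nu
  rw [norm_smul, Real.norm_eq_abs, abs_of_pos hr, mul_inv, smul_smul]
  congr 1
  field_simp

theorem nu_lip : LipschitzOnWith 4 (nu : E → E) {x | 1 / 2 < ‖x‖} := by
  apply LipschitzOnWith.of_dist_le_mul
  intro x hx y hy
  have hx' : 1 / 2 < ‖x‖ := hx
  have hy' : 1 / 2 < ‖y‖ := hy
  have hx0 : 0 < ‖x‖ := by linarith
  have hy0 : 0 < ‖y‖ := by linarith
  rw [dist_eq_norm, dist_eq_norm]
  unfold nu
  have e : ‖x‖⁻¹ • x - ‖y‖⁻¹ • y = ‖x‖⁻¹ • (x - y) + (‖x‖⁻¹ - ‖y‖⁻¹) • y := by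
    rw [smul_sub, sub_smul]
    abel
  rw [e]
  have h1 : ‖‖x‖⁻¹ • (x - y)‖ ≤ 2 * ‖x - y‖ := by
    rw [norm_smul, norm_inv, norm_norm]
    apply mul_le_mul_of_nonneg_right _ (norm_nonneg _)
    rw [inv_le_comm₀ hx0 (by norm_num)]
    linarith
  have h2 : ‖(‖x‖⁻¹ - ‖y‖⁻¹) • y‖ ≤ 2 * ‖x - y‖ := by
    rw [norm_smul, Real.norm_eq_abs]
    have h3 : ‖x‖⁻¹ - ‖y‖⁻¹ = (‖y‖ - ‖x‖) * (‖x‖⁻¹ * ‖y‖⁻¹) := by
      field_simp
    rw [h3, abs_mul, abs_of_pos (show 0 < ‖x‖⁻¹ * ‖y‖⁻¹ by positivity)]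
    have h4 : |‖y‖ - ‖x‖| ≤ ‖x - y‖ := by
      rw [← norm_sub_rev]
      exact abs_norm_sub_norm_le _ _
    have h5 : ‖x‖⁻¹ ≤ 2 := by
      rw [inv_le_comm₀ hx0 (by norm_num)]
      linarith
    calc |‖y‖ - ‖x‖| * (‖x‖⁻¹ * ‖y‖⁻¹) * ‖y‖ = |‖y‖ - ‖x‖| * ‖x‖⁻¹ := by
          field_simp
      _ ≤ ‖x - y‖ * 2 := mul_le_mul h4 h5 (by positivity) (norm_nonneg _)
      _ = _ := mul_comm _ _
  calc _ ≤ ‖‖x‖⁻¹ • (x - y)‖ + ‖(‖x‖⁻¹ - ‖y‖⁻¹) • y‖ := norm_add_le _ _
    _ ≤ 2 * ‖x - y‖ + 2 * ‖x - y‖ := add_le_add h1 h2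
    _ = _ := by push_cast; ring

theorem main_pos (μ : Measure E) [μ.IsAddHaarMeasure] {C : ℝ≥0} {a : E → E} {V : Set E}
    (ha : LipschitzOnWith C a V)
    (hpos : 0 < μ {x | ∃ e ∈ V, ∃ t ∈ Ioo (0:ℝ) 1, x = t • e}) (hV : ∀ e ∈ V, ‖e‖ = 1)
    {K : Set E} (hK : ∀ e ∈ V, ∀ t ∈ Icc (0:ℝ) 1, a e + t • e ∈ K) : 0 < μ K := by
  obtain ⟨a', ha', haa'⟩ := ha.extend_finite_dimension
  set k : E → E := fun x => a' (nu x) - nu x with hkdef
  have hk : ∀ r : ℝ, 0 < r → ∀ x, k (r • x) = k x := by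
    intro r hr x
    rw [hkdef]
    dsimp only
    rw [nu_homog r hr x]
  set U : Set E := {x | 1 / 2 < ‖x‖} with hU
  have hUo : IsOpen U := isOpen_lt continuous_const continuous_norm
  have hklip := (ha'.comp_lipschitzOnWith (nu_lip (E := E))).sub (nu_lip (E := E))
  have hae : ∀ᵐ x ∂μ, x ∈ U → DifferentiableAt ℝ k x := by
    have h1 := hklip.ae_differentiableWithinAt_of_mem (μ := μ)
    filter_upwards [h1] with x hx hxU
    exact (hx hxU).differentiableAt (hUo.mem_nhds hxU)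
  have hZ := null_set μ hk
  set W0 : Set E := {x | 1 < ‖x‖ ∧ ‖x‖ ≤ 2 ∧ nu x ∈ V} with hW0
  have hW0pos : 0 < μ W0 := by
    by_contra hcon
    have h0 : μ W0 = 0 := le_antisymm (not_lt.1 hcon) bot_le
    have h1 : {x | ∃ e ∈ V, ∃ t ∈ Ioo (0:ℝ) 1, x = t • e} ⊆
        ⋃ j : ℕ, (fun x : E => ((2:ℝ) ^ j) • x) ⁻¹' W0 := by
      rintro x ⟨e, he, t, ht, rfl⟩
      have ht0 : 0 < t := ht.1
      have ht1 : 1 ≤ t⁻¹ := (one_le_inv₀ ht0).2 ht.2.le
      obtain ⟨m, hm1, hm2⟩ := exists_nat_pow_near ht1 (show (1:ℝ) < 2 by norm_num)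
      rw [mem_iUnion]
      refine ⟨m + 1, ?_⟩
      have hn : ‖((2:ℝ) ^ (m + 1)) • t • e‖ = 2 ^ (m + 1) * t := by
        rw [norm_smul, norm_smul, hV e he, mul_one, Real.norm_eq_abs, Real.norm_eq_abs,
          abs_of_pos ht0, abs_of_pos (by positivity)]
      refine ⟨?_, ?_, ?_⟩
      · show 1 < ‖((2:ℝ) ^ (m + 1)) • t • e‖
        rw [hn]
        rw [inv_lt_iff_one_lt_mul₀ ht0] at hm2
        linarith
      · show ‖((2:ℝ) ^ (m + 1)) • t • e‖ ≤ 2
        rw [hn, pow_succ]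
        have h2 : 2 ^ m * t ≤ 1 := by
          calc 2 ^ m * t ≤ t⁻¹ * t := mul_le_mul_of_nonneg_right hm1 ht0.le
            _ = 1 := inv_mul_cancel₀ ht0.ne'
        linarith
      · show nu (((2:ℝ) ^ (m + 1)) • t • e) ∈ V
        rw [nu_homog _ (by positivity), nu_homog _ ht0]
        unfold nu
        rw [hV e he, inv_one, one_smul]
        exact he
    have h2 : μ (⋃ j : ℕ, (fun x : E => ((2:ℝ) ^ j) • x) ⁻¹' W0) = 0 := by
      rw [measure_iUnion_null_iff]
      intro j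
      rw [Measure.addHaar_preimage_smul μ (by positivity), h0, mul_zero]
    exact absurd hpos (not_lt.2 (le_trans (measure_mono h1) h2.le))
  set W : Set E := {x | x ∈ W0 ∧ DifferentiableAt ℝ k x ∧
    (ContinuousLinearMap.id ℝ E + fderiv ℝ k x).det ≠ 0} with hW
  have hWpos : 0 < μ W := by
    by_contra hcon
    have h0 : μ W = 0 := le_antisymm (not_lt.1 hcon) bot_le
    have h1 : μ {x | ¬ (x ∈ U → DifferentiableAt ℝ k x)} = 0 := hae
    have h2 : W0 ⊆ W ∪ ({x | ¬ (x ∈ U → DifferentiableAt ℝ k x)} ∪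
        {x | DifferentiableAt ℝ k x ∧
          (ContinuousLinearMap.id ℝ E + fderiv ℝ k x).det = 0}) := by
      intro x hx
      by_cases hd : DifferentiableAt ℝ k x
      · by_cases hdet : (ContinuousLinearMap.id ℝ E + fderiv ℝ k x).det = 0
        · right; right; exact ⟨hd, hdet⟩
        · left; exact ⟨hx, hd, hdet⟩
      · right; left
        intro hcon2
        apply hd
        apply hcon2
        show 1 / 2 < ‖x‖
        linarith [hx.1]
    have h3 := measure_mono_null h2 (measure_union_null h0 (measure_union_null h1 hZ))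
    exact absurd hW0pos (by rw [h3]; exact lt_irrefl _)
  have hfin := pos_of_invertible μ (fun x => x + k x) W hWpos
    (fun x => ContinuousLinearMap.id ℝ E + fderiv ℝ k x)
    (fun x hx => (hasFDerivAt_id x).add hx.2.1.hasFDerivAt) (fun x hx => hx.2.2)
  refine lt_of_lt_of_le hfin (measure_mono ?_)
  rintro _ ⟨x, ⟨⟨h1, h2, h3⟩, -, -⟩, rfl⟩
  have hx0 : ‖x‖ ≠ 0 := by linarith
  have e1 : x + k x = a (nu x) + (‖x‖ - 1) • nu x := by
    rw [hkdef]
    dsimp only
    rw [← haa' h3, sub_smul, one_smul]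
    have : ‖x‖ • nu x = x := by
      unfold nu
      rw [smul_smul, mul_inv_cancel₀ hx0, one_smul]
    rw [this]
    abel
  show x + k x ∈ K
  rw [e1]
  exact hK _ h3 _ ⟨by linarith, by linarith⟩

theorem dimH_of_pos {K : Set E} (μ : Measure E) [μ.IsAddHaarMeasure] (h : 0 < μ K) :
    dimH K = finrank ℝ E := by
  apply le_antisymm
  · rw [← Real.dimH_univ_eq_finrank E]
    exact dimH_mono (subset_univ _)
  · have h1 : μH[(finrank ℝ E : ℝ≥0)] K ≠ 0 := by
      intro h2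
      have h3 : μ ≪ (μH[finrank ℝ E] : Measure E) :=
        Measure.absolutelyContinuous_isAddHaarMeasure _ _
      have h4 : (μH[finrank ℝ E] : Measure E) K = 0 := by
        exact_mod_cast h2
      exact h.ne' (h3 h4)
    have := le_dimH_of_hausdorffMeasure_ne_zero h1
    exact_mod_cast this

end general

end Vale.Agent.H13.Kakeya
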